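import Vale.Agent.P279.Bdl.B1

/-!
# Final assembly: from the core emptiness statement to Nagata's conjecture
-/

set_option linter.all false

namespace Vale.Agent.P279.H597

open MvPolynomial Vale.Agent.P279

/-- The core emptiness statement: no curve of degree `3 b` has multiplicity `m` at `r` general
points, if `9 b ^ 2 ≤ r m ^ 2` and `1 ≤ m < b`. -/
def Core (r : ℕ) : Prop :=
  ∀ b m : ℕ, 1 ≤ m → m < b → 9 * b ^ 2 ≤ r * m ^ 2 → ¬ Eff (3 * b) 0 (fun _ : Fin r => m)

section Products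

theorem multGE_mul' {R : Type*} [CommRing R] {q : Fin 2 → R} {m m' : ℕ}
    {P Q : MvPolynomial (Fin 2) R} (hP : MultGE q m P) (hQ : MultGE q m' Q) :
    MultGE q (m + m') (P * Q) := by
  rw [multGE_iff] at hP hQ ⊢
  rw [map_mul, pow_add]
  exact Ideal.mul_mem_mul hP hQ

theorem eff_mul {ι : Type*} {b c b' c' : ℕ} {m m' : ι → ℕ} (h : Eff b c m) (h' : Eff b' c' m') :
    Eff (b + b') (c + c') (fun i => m i + m' i) := by
  intro q
  obtain ⟨P, hP, hV, hm⟩ := h q
  obtain ⟨P', hP', hV', hm'⟩ := h' q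
  exact ⟨P * P', mul_ne_zero hP hP', hV.mul hV', fun i => multGE_mul' (hm i) (hm' i)⟩

theorem eff_zero_zero {ι : Type*} : Eff 0 0 (fun _ : ι => 0) := by
  intro q
  refine ⟨1, one_ne_zero, ?_, fun i => multGE_zero_left⟩
  intro δ hδ
  have : (1 : MvPolynomial (Fin 2) ℚ) = C 1 := by simp
  rw [this] at hδ
  exact (InV.C (a := (1 : ℚ))) δ hδ

theorem eff_sum {ι κ : Type*} (s : Finset κ) (b c : κ → ℕ) (m : κ → ι → ℕ)
    (h : ∀ k ∈ s, Eff (b k) (c k) (m k)) :
    Eff (∑ k ∈ s, b k) (∑ k ∈ s, c k) (fun i => ∑ k ∈ s, m k i) := by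
  classical
  induction s using Finset.induction_on with
  | empty => simpa using eff_zero_zero
  | insert a s ha ih =>
    simp only [Finset.sum_insert ha]
    exact eff_mul (h a (Finset.mem_insert_self a s))
      (ih fun k hk => h k (Finset.mem_insert_of_mem hk))

theorem eff_mono {ι : Type*} {b b' c : ℕ} {m m' : ι → ℕ} (h : Eff b c m) (hb : b ≤ b')
    (hm : ∀ i, m' i ≤ m i) : Eff b' c m' := by
  intro q
  obtain ⟨P, hP, hV, hmm⟩ := h q
  exact ⟨P, hP, fun δ hδ => ⟨(hV δ hδ).1.trans hb, (hV δ hδ).2.trans hb⟩,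
    fun i α hα => hmm i α (lt_of_lt_of_le hα (hm i))⟩

end Products

/-- Symmetrisation over the cyclic shifts of the points. -/
theorem eff_symm {r : ℕ} {d : ℕ} {m : Fin r → ℕ} (h : Eff d 0 m) :
    Eff (r * d) 0 (fun _ : Fin r => ∑ i, m i) := by
  classical
  rcases Nat.eq_zero_or_pos r with rfl | hr
  · intro q
    exact ⟨1, one_ne_zero, by
      intro δ hδ
      have : (1 : MvPolynomial (Fin 2) ℚ) = C 1 := by simp
      rw [this] at hδ
      have := (InV.C (a := (1 : ℚ))) δ hδ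
      omega, fun i => i.elim0⟩
  · haveI : NeZero r := ⟨by omega⟩
    have h1 := eff_sum (Finset.univ : Finset (Fin r)) (fun _ => d) (fun _ => 0)
      (fun k => m ∘ (Equiv.addRight k)) (fun k _ => h.reindex (Equiv.addRight k))
    have h2 : ∑ _k : Fin r, d = r * d := by simp
    have h3 : ∑ _k : Fin r, 0 = 0 := by simp
    rw [h2, h3] at h1
    refine eff_mono h1 le_rfl fun i => le_of_eq ?_
    exact (Equiv.sum_comp (Equiv.addLeft i) m).symm

theorem eff_nsmul {r : ℕ} {d c : ℕ} {m : Fin r → ℕ} (h : Eff d c m) (k : ℕ) :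
    Eff (k * d) (k * c) (fun i => k * m i) := by
  have h1 := eff_sum (Finset.univ : Finset (Fin k)) (fun _ => d) (fun _ => c) (fun _ => m)
    (fun _ _ => h)
  simpa using h1

/-- The strict inequality for all effective classes, from the core statement. -/
theorem strict_of_core {r : ℕ} (hr : 10 ≤ r) (hcore : Core r) {d : ℕ} (hd : 1 ≤ d)
    {m : Fin r → ℕ} (hE : Eff d 0 m) : ∑ i, (m i : ℝ) < d * √(r : ℝ) := by
  by_contra hcon
  push Not at hcon
  set S := ∑ i, m i with hS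
  have hSR : (S : ℝ) = ∑ i, (m i : ℝ) := by rw [hS]; push_cast; rfl
  rw [← hSR] at hcon
  have hr0 : (0 : ℝ) < r := by exact_mod_cast (by omega : 0 < r)
  have hd0 : (0 : ℝ) < d := by exact_mod_cast hd
  have hS0 : (0 : ℝ) < S := lt_of_lt_of_le (by positivity) hcon
  have hS1 : 1 ≤ S := by exact_mod_cast hS0
  have hsq : r * d ^ 2 ≤ S ^ 2 := by
    have h1 : ((d : ℝ) * √(r : ℝ)) ^ 2 ≤ (S : ℝ) ^ 2 := by
      apply pow_le_pow_left₀ (by positivity) hcon
    rw [mul_pow, Real.sq_sqrt hr0.le] at h1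
    have h2 : ((r * d ^ 2 : ℕ) : ℝ) ≤ ((S ^ 2 : ℕ) : ℝ) := by push_cast; linarith
    exact_mod_cast h2
  have h3 := eff_nsmul (eff_symm hE) 3
  rw [← hS] at h3
  rcases lt_or_ge (3 * S) (r * d) with h4 | h4
  · refine hcore (r * d) (3 * S) (by omega) h4 ?_ h3
    calc 9 * (r * d) ^ 2 = 9 * r * (r * d ^ 2) := by ring
      _ ≤ 9 * r * S ^ 2 := by gcongr
      _ = r * (3 * S) ^ 2 := by ring
  · have h5 := eff_nsmul h3 19
    refine hcore (57 * S + 1) (57 * S) (by omega) (by omega) ?_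
      (eff_mono h5 (by omega) fun i => by omega)
    calc 9 * (57 * S + 1) ^ 2 ≤ 10 * (57 * S) ^ 2 := by nlinarith only [hS1]
      _ ≤ r * (57 * S) ^ 2 := by gcongr

/-- Nagata's conjecture from the core statement. -/
theorem nagata_of_core (r : ℕ) (hr : 10 ≤ r) (hcore : Core r) : VeryGenerally r fun p =>
    ∀ (d : ℕ) (F : MvPolynomial (Fin 3) ℂ), 1 ≤ d → F.IsHomogeneous d → F ≠ 0 →
      ∀ m : Fin r → ℕ, (∀ i, MultAtLeast F (p i) (m i)) →
        ∑ i, (m i : ℝ) < d * √(r : ℝ) := by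
  refine veryGenerally_of_algInd r _ ?_
  intro p _ hp2 hai d F hd hF h0 m hm
  exact strict_of_core hr hcore hd (eff_of_curve hp2 hai hF h0 m hm)

end Vale.Agent.P279.H597
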