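import Vale.Agent.P279.Bdl.B1

/-!
# The sharp Lemma B

A polynomial in two variables `y = X 0`, `x = X 1`, supported on the lattice points of the triangle
`s j ≤ i < (s + 9) j`, `j ≤ b`, `s = 9 (b - m) / m` (and the origin), with multiplicity `m` at `r`
points of the line `y = 1`, vanishes as soon as `9 b ^ 2 ≤ r m ^ 2`.
-/

set_option linter.all false

namespace Vale.Agent.P279.H597

open MvPolynomial Vale.Agent.P279

/-- The support of Lemma B. -/
def Qs (b m : ℕ) : Set (Fin 2 →₀ ℕ) :=
  {δ | (δ 0 = 0 ∧ δ 1 = 0) ∨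
    (1 ≤ δ 0 ∧ δ 0 ≤ b ∧ 9 * (b - m) * δ 0 ≤ m * δ 1 ∧ m * δ 1 < 9 * b * δ 0)}

/-- The shrinking triangles. -/
def Ta (b m a : ℕ) : Set (Fin 2 →₀ ℕ) :=
  {δ | δ 0 + a ≤ b ∧ 9 * (b - m) * (δ 0 + a) ≤ m * δ 1 ∧
    (m * δ 1 < 9 * b * δ 0 ∨ (δ 0 = 0 ∧ δ 1 = 0))}

theorem Qs_subset (b m : ℕ) : Qs b m ⊆ Ta b m 0 := by
  rintro δ (⟨h0, h1⟩ | ⟨h1, h2, h3, h4⟩)
  · refine ⟨by omega, by simp [h0], Or.inr ⟨h0, h1⟩⟩
  · exact ⟨by omega, by simpa using h3, Or.inl h4⟩

/-- The exponent `(j, i)`. -/
noncomputable def mk (j i : ℕ) : Fin 2 →₀ ℕ := Finsupp.single 0 j + Finsupp.single 1 i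

@[simp] theorem mk_zero (j i : ℕ) : mk j i 0 = j := by simp [mk]
@[simp] theorem mk_one (j i : ℕ) : mk j i 1 = i := by simp [mk]

theorem mk_eq (δ : Fin 2 →₀ ℕ) : mk (δ 0) (δ 1) = δ := by
  ext k
  fin_cases k <;> simp

theorem mk_succ (j i : ℕ) : mk (j + 1) i = Finsupp.single 0 1 + mk j i := by
  ext k
  fin_cases k <;> simp [mk, add_comm]

section Field

variable {K : Type*} [Field K]

/-- Restriction to the line `y = 1`. -/
noncomputable def res : MvPolynomial (Fin 2) K →ₐ[K] Polynomial K := aeval ![1, Polynomial.X]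

/-- Restriction to the line `y = 0`. -/
noncomputable def ev0 : MvPolynomial (Fin 2) K →ₐ[K] Polynomial K := aeval ![0, Polynomial.X]

theorem res_coeff (P : MvPolynomial (Fin 2) K) (i : ℕ) (h : ∀ δ ∈ P.support, δ 1 ≠ i) :
    (res P).coeff i = 0 := by
  rw [res, aeval_def, eval₂_eq', Polynomial.finset_sum_coeff]
  refine Finset.sum_eq_zero fun δ hδ => ?_
  rw [Fin.prod_univ_two]
  simp only [Matrix.cons_val_zero, one_pow, Matrix.cons_val_one, one_mul,
    Polynomial.algebraMap_eq, Polynomial.coeff_C_mul, Polynomial.coeff_X_pow]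
  rw [if_neg (fun hh => h δ hδ hh.symm), mul_zero]

theorem ev0_coeff (P : MvPolynomial (Fin 2) K) (i : ℕ) (h : coeff (mk 0 i) P = 0) :
    (ev0 P).coeff i = 0 := by
  rw [ev0, aeval_def, eval₂_eq', Polynomial.finset_sum_coeff]
  refine Finset.sum_eq_zero fun δ hδ => ?_
  rw [Fin.prod_univ_two]
  simp only [Matrix.cons_val_zero, Matrix.cons_val_one,
    Polynomial.algebraMap_eq, Polynomial.coeff_C_mul]
  by_cases h0 : δ 0 = 0
  · rw [h0, pow_zero, one_mul, Polynomial.coeff_X_pow]
    by_cases h1 : i = δ 1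
    · have : δ = mk 0 i := by rw [← mk_eq δ, h0, h1]
      rw [this, h, zero_mul]
    · rw [if_neg h1, mul_zero]
  · rw [zero_pow h0, zero_mul, Polynomial.coeff_zero, mul_zero]

theorem dvd_sub_res (P : MvPolynomial (Fin 2) K) :
    (X 0 - 1 : MvPolynomial (Fin 2) K) ∣ P - Polynomial.aeval (X 1) (res P) := by
  induction P using MvPolynomial.induction_on with
  | C a =>
    have : res (C a : MvPolynomial (Fin 2) K) = Polynomial.C a := by
      rw [res, aeval_C]; rfl
    rw [this, Polynomial.aeval_C, MvPolynomial.algebraMap_eq, sub_self]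
    exact dvd_zero _
  | add p q hp hq =>
    rw [map_add, map_add]
    have := dvd_add hp hq
    convert this using 1
    ring
  | mul_X p n hp =>
    obtain ⟨c, hc⟩ := hp
    have hp' : p = (X 0 - 1) * c + Polynomial.aeval (X 1) (res p) := by
      rw [← hc]; ring
    rw [map_mul, map_mul]
    fin_cases n
    · have h1 : res (X 0 : MvPolynomial (Fin 2) K) = 1 := by simp [res]
      change (X 0 - 1 : MvPolynomial (Fin 2) K) ∣ p * X 0 -
        Polynomial.aeval (X 1) (res p) * Polynomial.aeval (X 1) (res (X 0 : MvPolynomial (Fin 2) K))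
      rw [h1, map_one, mul_one]
      refine ⟨c * X 0 + Polynomial.aeval (X 1) (res p), ?_⟩
      have h2 : p * X 0 - Polynomial.aeval (X 1) (res p) =
          ((X 0 - 1) * c + Polynomial.aeval (X 1) (res p)) * X 0 -
            Polynomial.aeval (X 1) (res p) := by
        rw [← hp']
      rw [h2]
      ring
    · have h1 : res (X 1 : MvPolynomial (Fin 2) K) = Polynomial.X := by simp [res]
      change (X 0 - 1 : MvPolynomial (Fin 2) K) ∣ p * X 1 -
        Polynomial.aeval (X 1) (res p) * Polynomial.aeval (X 1) (res (X 1 : MvPolynomial (Fin 2) K))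
      rw [h1, Polynomial.aeval_X]
      refine ⟨c * X 1, ?_⟩
      rw [← sub_mul, hc]
      ring

/-- The restriction to `y = 1` of a polynomial of multiplicity `k` at `(1, x)`. -/
theorem pow_dvd_res {q : Fin 2 → K} (hq : q 0 = 1) {k : ℕ} {P : MvPolynomial (Fin 2) K}
    (hP : MultGE q k P) : (Polynomial.X - Polynomial.C (q 1)) ^ k ∣ res P := by
  have h1 : (Polynomial.aeval (Polynomial.X + Polynomial.C (q 1)) : Polynomial K →ₐ[K] _)
      (res P) = ev0 (shift q P) := by
    have : ((Polynomial.aeval (Polynomial.X + Polynomial.C (q 1)) :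
        Polynomial K →ₐ[K] Polynomial K).comp res) = (ev0.comp (shift q)) := by
      apply MvPolynomial.algHom_ext
      intro j
      fin_cases j
      · simp [res, ev0, shift, hq]
      · simp [res, ev0, shift]
    exact DFunLike.congr_fun this P
  have h2 : (Polynomial.X : Polynomial K) ^ k ∣
      (Polynomial.aeval (Polynomial.X + Polynomial.C (q 1)) : Polynomial K →ₐ[K] _) (res P) := by
    rw [h1, Polynomial.X_pow_dvd_iff]
    intro d hd
    exact ev0_coeff _ _ (hP _ (by simpa using hd))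
  have h3 := map_dvd (Polynomial.aeval (Polynomial.X - Polynomial.C (q 1)) :
    Polynomial K →ₐ[K] Polynomial K) h2
  rw [map_pow, Polynomial.aeval_X] at h3
  convert h3 using 1
  have h4 : ((Polynomial.aeval (Polynomial.X - Polynomial.C (q 1)) :
      Polynomial K →ₐ[K] Polynomial K).comp
      (Polynomial.aeval (Polynomial.X + Polynomial.C (q 1)))) = AlgHom.id K _ := by
    apply Polynomial.algHom_ext
    simp
  exact (DFunLike.congr_fun h4 (res P)).symm

/-- Division by `y - 1` lowers the multiplicity by one. -/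
theorem multGE_of_mul {q : Fin 2 → K} (hq : q 0 = 1) {k : ℕ} {h : MvPolynomial (Fin 2) K}
    (hP : MultGE q (k + 1) ((X 0 - 1) * h)) : MultGE q k h := by
  intro α hα
  have h1 : shift q ((X 0 - 1) * h) = X 0 * shift q h := by
    rw [map_mul, map_sub, map_one]
    congr 1
    simp [shift, hq]
  have h2 := hP (Finsupp.single 0 1 + α) (by simp; omega)
  rw [h1, coeff_X_mul] at h2
  exact h2

theorem coeff_zero_row (h : MvPolynomial (Fin 2) K) (i : ℕ) :
    coeff (mk 0 i) ((X 0 - 1) * h) = - coeff (mk 0 i) h := by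
  classical
  rw [sub_mul, one_mul, coeff_sub, coeff_X_mul', if_neg, zero_sub]
  simp [mk]

theorem coeff_succ_row (h : MvPolynomial (Fin 2) K) (j i : ℕ) :
    coeff (mk (j + 1) i) ((X 0 - 1) * h) = coeff (mk j i) h - coeff (mk (j + 1) i) h := by
  rw [sub_mul, one_mul, coeff_sub, mk_succ, coeff_X_mul]

/-- The support of the quotient by `y - 1`. -/
theorem support_quot (h : MvPolynomial (Fin 2) K) (j i : ℕ) (hne : coeff (mk j i) h ≠ 0) :
    (∃ j' ≤ j, coeff (mk j' i) ((X 0 - 1) * h) ≠ 0) ∧
      ∃ j' > j, coeff (mk j' i) ((X 0 - 1) * h) ≠ 0 := by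
  constructor
  · by_contra hcon
    push Not at hcon
    have : ∀ k ≤ j, coeff (mk k i) h = 0 := by
      intro k
      induction k with
      | zero =>
        intro hk
        have := hcon 0 hk
        rw [coeff_zero_row] at this
        simpa using this
      | succ k ih =>
        intro hk
        have h1 := hcon (k + 1) hk
        rw [coeff_succ_row, ih (by omega), zero_sub, neg_eq_zero] at h1
        exact h1
    exact hne (this j le_rfl)
  · by_contra hcon
    push Not at hcon
    have h1 : ∀ k, coeff (mk (j + k) i) h = coeff (mk j i) h := by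
      intro k
      induction k with
      | zero => rfl
      | succ k ih =>
        have h2 := hcon (j + k + 1) (by omega)
        rw [coeff_succ_row, sub_eq_zero] at h2
        rw [← ih, h2]
        rfl
    have h2 := h1 (h.totalDegree + 1)
    have h3 : coeff (mk (j + (h.totalDegree + 1)) i) h = 0 := by
      apply coeff_eq_zero_of_totalDegree_lt
      rw [← Finsupp.degree_apply, degree_two]
      simp
      omega
    rw [h3] at h2
    exact hne h2.symm

/-- The core of Lemma B: a polynomial supported on rows `p ≤ i < p + r k`. -/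
theorem res_eq_zero {r : ℕ} {x : Fin r → K} (hx : Function.Injective x) (hx0 : ∀ l, x l ≠ 0)
    {k p : ℕ} {P : MvPolynomial (Fin 2) K} (hs : ∀ δ ∈ P.support, p ≤ δ 1 ∧ δ 1 < p + r * k)
    (hP : ∀ l, MultGE ![1, x l] k P) : res P = 0 := by
  classical
  by_contra hne
  have h1 : (Polynomial.X : Polynomial K) ^ p ∣ res P := by
    rw [Polynomial.X_pow_dvd_iff]
    intro d hd
    exact res_coeff P d fun δ hδ h => by have := (hs δ hδ).1; omega
  have h2 : ∀ l, (Polynomial.X - Polynomial.C (x l)) ^ k ∣ res P := fun l =>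
    pow_dvd_res (q := ![1, x l]) rfl (hP l)
  have h3 : (∏ l, (Polynomial.X - Polynomial.C (x l)) ^ k) ∣ res P := by
    refine Finset.prod_dvd_of_coprime ?_ fun l _ => h2 l
    intro a _ b _ hab
    exact (Polynomial.isCoprime_X_sub_C_of_isUnit_sub
      (IsUnit.mk0 _ (sub_ne_zero.mpr fun h => hab (hx h)))).pow
  have h4 : IsCoprime ((Polynomial.X : Polynomial K) ^ p)
      (∏ l, (Polynomial.X - Polynomial.C (x l)) ^ k) := by
    refine IsCoprime.prod_right fun l _ => ?_
    refine IsCoprime.pow ?_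
    refine ⟨Polynomial.C (x l)⁻¹, - Polynomial.C (x l)⁻¹, ?_⟩
    have h4' : Polynomial.C (x l)⁻¹ * Polynomial.C (x l) = (1 : Polynomial K) := by
      rw [← Polynomial.C_mul, inv_mul_cancel₀ (hx0 l), Polynomial.C_1]
    linear_combination h4'
  have h5 := h4.mul_dvd h1 h3
  have h6 := Polynomial.natDegree_le_of_dvd h5 hne
  rw [Polynomial.natDegree_mul (pow_ne_zero _ Polynomial.X_ne_zero)
    (Finset.prod_ne_zero_iff.mpr fun l _ => pow_ne_zero _ (Polynomial.X_sub_C_ne_zero _)),
    Polynomial.natDegree_X_pow, Polynomial.natDegree_prod _ _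
      (fun l _ => pow_ne_zero _ (Polynomial.X_sub_C_ne_zero _))] at h6
  simp only [Polynomial.natDegree_pow, Polynomial.natDegree_X_sub_C, mul_one, Finset.sum_const,
    Finset.card_univ, Fintype.card_fin, smul_eq_mul] at h6
  have h7 : (res P).coeff (res P).natDegree ≠ 0 := by
    rw [Polynomial.coeff_natDegree]
    exact Polynomial.leadingCoeff_ne_zero.mpr hne
  apply h7
  apply res_coeff
  intro δ hδ h
  have := (hs δ hδ).2
  omega

/-- **Lemma B**, sharp form (induction statement). -/
theorem lemmaB_aux {r b m : ℕ} (hm : 1 ≤ m) (hmb : m < b) (h9 : 9 * b ^ 2 ≤ r * m ^ 2)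
    {x : Fin r → K} (hx : Function.Injective x) (hx0 : ∀ l, x l ≠ 0) :
    ∀ k a : ℕ, a + k = m → ∀ P : MvPolynomial (Fin 2) K, (∀ δ ∈ P.support, δ ∈ Ta b m a) →
      (∀ l, MultGE ![1, x l] k P) → P = 0 := by
  intro k
  induction k with
  | zero =>
    intro a ha P hs _
    by_contra hne
    obtain ⟨δ, hδ⟩ := support_nonempty.mpr hne
    obtain ⟨h1, h2, h3⟩ := hs δ hδ
    have ha' : a = m := by omega
    subst ha'
    obtain ⟨c, rfl⟩ : ∃ c, b = a + c := ⟨b - a, by omega⟩
    rw [Nat.add_sub_cancel_left] at h2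
    rcases h3 with h3 | ⟨h3, h4⟩
    · have h5 : 9 * c * (δ 0 + a) < 9 * (a + c) * δ 0 := lt_of_le_of_lt h2 h3
      have h6 : c * a < a * δ 0 := by nlinarith only [h5]
      have h7 : c < δ 0 := by
        by_contra h
        have : a * δ 0 ≤ a * c := Nat.mul_le_mul_left _ (by omega)
        nlinarith only [this, h6]
      omega
    · rw [h3, h4] at h2
      have : 0 < c * a := Nat.mul_pos (by omega) hm
      nlinarith only [h2, this]
  | succ k ih =>
    intro a ha P hs hP
    obtain ⟨c, rfl⟩ : ∃ c, b = m + c := ⟨b - m, by omega⟩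
    have hcm : m + c - m = c := Nat.add_sub_cancel_left _ _
    have hsT : ∀ δ ∈ P.support, δ 0 + a ≤ m + c ∧ 9 * c * (δ 0 + a) ≤ m * δ 1 ∧
        (m * δ 1 < 9 * (m + c) * δ 0 ∨ (δ 0 = 0 ∧ δ 1 = 0)) := by
      intro δ hδ
      have := hs δ hδ
      rw [Ta, Set.mem_setOf_eq, hcm] at this
      exact this
    have hex : ∃ p, 9 * (m + c) * c * a ≤ m ^ 2 * p :=
      ⟨9 * (m + c) * c * a, Nat.le_mul_of_pos_left _ (by positivity)⟩
    set p := Nat.find hex with hp
    have hp1 : 9 * (m + c) * c * a ≤ m ^ 2 * p := Nat.find_spec hex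
    have hp2 : ∀ i, 9 * (m + c) * c * a ≤ m ^ 2 * i → p ≤ i := fun i hi => Nat.find_min' hex hi
    have hr : 1 ≤ r := by
      by_contra h
      have : r = 0 := by omega
      rw [this, zero_mul] at h9
      have : 0 < (m + c) ^ 2 := by positivity
      omega
    have hres : res P = 0 := by
      refine res_eq_zero hx hx0 (k := k + 1) (p := p) ?_ hP
      intro δ hδ
      obtain ⟨h1, h2, h3⟩ := hsT δ hδ
      rcases h3 with h3 | ⟨h3, h4⟩
      · constructor
        · apply hp2
          have e1 := Nat.mul_le_mul_left (m + c) h2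
          have e2 := Nat.mul_le_mul_left c h3.le
          nlinarith only [e1, e2]
        · have e1 := Nat.mul_lt_mul_of_pos_left h3 hm
          have e2 : 9 * m * (m + c) * δ 0 ≤ 9 * m * (m + c) * (k + 1 + c) :=
            Nat.mul_le_mul_left _ (by omega)
          have e3 : 9 * m * (m + c) * (k + 1 + c) =
              9 * (m + c) * c * a + 9 * (m + c) ^ 2 * (k + 1) := by
            have : m = a + (k + 1) := ha.symm
            subst this
            ring
          have e4 := Nat.mul_le_mul_right (k + 1) h9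
          have e5 : m ^ 2 * δ 1 < m ^ 2 * (p + r * (k + 1)) := by
            calc m ^ 2 * δ 1 = m * (m * δ 1) := by ring
              _ < m * (9 * (m + c) * δ 0) := e1
              _ = 9 * m * (m + c) * δ 0 := by ring
              _ ≤ 9 * (m + c) * c * a + 9 * (m + c) ^ 2 * (k + 1) := by rw [← e3]; exact e2
              _ ≤ m ^ 2 * p + r * m ^ 2 * (k + 1) := Nat.add_le_add hp1 e4
              _ = m ^ 2 * (p + r * (k + 1)) := by ring
          exact Nat.lt_of_mul_lt_mul_left e5
      · rw [h3, h4, mul_zero, zero_add] at h2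
        have h5 : c * a = 0 := by nlinarith only [h2]
        rw [h4]
        constructor
        · apply hp2
          rw [mul_assoc, h5, mul_zero]
          exact Nat.zero_le _
        · have : 0 < r * (k + 1) := by positivity
          omega
    obtain ⟨h, hh⟩ := dvd_sub_res P
    rw [hres, map_zero, sub_zero] at hh
    subst hh
    rw [ih (a + 1) (by omega) h ?_ (fun l => multGE_of_mul rfl (hP l)), mul_zero]
    intro δ hδ
    rw [mem_support_iff, ← mk_eq δ] at hδ
    obtain ⟨⟨j', hj', hne'⟩, j'', hj'', hne''⟩ := support_quot h _ _ hδ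
    obtain ⟨u1, u2, u3⟩ := hsT _ (mem_support_iff.mpr hne')
    obtain ⟨v1, v2, v3⟩ := hsT _ (mem_support_iff.mpr hne'')
    simp only [mk_zero, mk_one] at u1 u2 u3 v1 v2 v3
    rw [Ta, Set.mem_setOf_eq, hcm]
    refine ⟨by omega, le_trans (Nat.mul_le_mul_left _ (by omega)) v2, ?_⟩
    rcases u3 with u3 | ⟨u3, u4⟩
    · exact Or.inl (lt_of_lt_of_le u3 (Nat.mul_le_mul_left _ hj'))
    · by_cases h0 : δ 0 = 0
      · exact Or.inr ⟨h0, u4⟩
      · left
        rw [u4, mul_zero]
        positivity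

/-- **Lemma B**, sharp form: if `9 b ^ 2 ≤ r m ^ 2` and `1 ≤ m < b`, then no nonzero polynomial
supported on `Qs b m` has multiplicity at least `m` at `r` points of the line `y = 1`. -/
theorem lemmaB {r b m : ℕ} (hm : 1 ≤ m) (hmb : m < b) (h9 : 9 * b ^ 2 ≤ r * m ^ 2)
    {x : Fin r → K} (hx : Function.Injective x) (hx0 : ∀ l, x l ≠ 0)
    {P : MvPolynomial (Fin 2) K} (hs : ∀ δ ∈ P.support, δ ∈ Qs b m)
    (hP : ∀ l, MultGE ![1, x l] m P) : P = 0 :=
  lemmaB_aux hm hmb h9 hx hx0 m 0 (by omega) P (fun δ hδ => Qs_subset b m (hs δ hδ)) hP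

end Field

end Vale.Agent.P279.H597
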