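import Vale.Agent.P279.H597.Fin
import Vale.Agent.P279.H597.LemmaB
import Vale.Agent.P279.H765.Glue

/-!
# From the lattice form of the degeneration statement to the core inequality
-/

set_option linter.all false

namespace Vale.Agent.P279.H597

open MvPolynomial Vale.Agent.P279

section Coeff

variable {R : Type*} [CommRing R]

theorem X_add_C_pow (k : Fin 2) (a : R) (n : ℕ) :
    ((X k + C a) ^ n : MvPolynomial (Fin 2) R) =
      ∑ i ∈ Finset.range (n + 1), monomial (Finsupp.single k i) (a ^ (n - i) * (n.choose i : R)) := by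
  rw [add_pow]
  refine Finset.sum_congr rfl fun i _ => ?_
  rw [X_pow_eq_monomial, ← C_pow, mul_assoc]
  have : ((n.choose i : ℕ) : MvPolynomial (Fin 2) R) = C (n.choose i : R) := by simp
  rw [this, ← C_mul, mul_comm, C_mul_monomial, mul_one]

theorem coeff_shift_monomial (q : Fin 2 → R) (δ α : Fin 2 →₀ ℕ) (c : R) :
    coeff α (shift q (monomial δ c)) = c * (((δ 0).choose (α 0) : R) * ((δ 1).choose (α 1) : R) *
      (q 0 ^ (δ 0 - α 0) * q 1 ^ (δ 1 - α 1))) := by
  classical
  have h1 : (monomial δ c : MvPolynomial (Fin 2) R) = C c * (X 0 ^ δ 0 * X 1 ^ δ 1) := by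
    rw [monomial_eq, Finsupp.prod_fintype _ _ (fun _ => pow_zero _), Fin.prod_univ_two]
  rw [h1, map_mul, shift_C, map_mul, map_pow, map_pow, shift_X, shift_X, coeff_C_mul, X_add_C_pow,
    X_add_C_pow, Finset.sum_mul_sum, coeff_sum]
  congr 1
  have h2 : ∀ i j : ℕ, coeff α ((monomial (Finsupp.single 0 i) (q 0 ^ (δ 0 - i) *
      ((δ 0).choose i : R)) : MvPolynomial (Fin 2) R) * monomial (Finsupp.single 1 j)
        (q 1 ^ (δ 1 - j) * ((δ 1).choose j : R))) = if i = α 0 ∧ j = α 1 then
          q 0 ^ (δ 0 - i) * ((δ 0).choose i : R) * (q 1 ^ (δ 1 - j) * ((δ 1).choose j : R))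
        else 0 := by
    intro i j
    rw [monomial_mul, coeff_monomial]
    congr 1
    apply propext
    constructor
    · intro h
      constructor
      · rw [← h]; simp
      · rw [← h]; simp
    · rintro ⟨rfl, rfl⟩
      ext k
      fin_cases k <;> simp
  have h3 : ∀ i ∈ Finset.range (δ 0 + 1), coeff α (∑ j ∈ Finset.range (δ 1 + 1),
      (monomial (Finsupp.single 0 i) (q 0 ^ (δ 0 - i) * ((δ 0).choose i : R)) :
        MvPolynomial (Fin 2) R) * monomial (Finsupp.single 1 j)
        (q 1 ^ (δ 1 - j) * ((δ 1).choose j : R))) = if i = α 0 then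
          q 0 ^ (δ 0 - i) * ((δ 0).choose i : R) * (q 1 ^ (δ 1 - α 1) * ((δ 1).choose (α 1) : R))
        else 0 := by
    intro i _
    rw [coeff_sum]
    by_cases hi : i = α 0
    · rw [if_pos hi]
      by_cases hj : α 1 ∈ Finset.range (δ 1 + 1)
      · rw [Finset.sum_eq_single (α 1)]
        · rw [h2, if_pos ⟨hi, rfl⟩]
        · intro j _ hj'
          rw [h2, if_neg (fun h => hj' h.2)]
        · intro h
          exact absurd hj h
      · have hc0 : (δ 1).choose (α 1) = 0 := Nat.choose_eq_zero_of_lt (by simpa using hj)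
        rw [Finset.sum_eq_zero, hc0]
        · simp
        · intro j hj'
          rw [h2, if_neg]
          rintro ⟨-, rfl⟩
          exact hj hj'
    · rw [if_neg hi]
      refine Finset.sum_eq_zero fun j _ => ?_
      rw [h2, if_neg (fun h => hi h.1)]
  rw [Finset.sum_congr rfl h3]
  by_cases hi : α 0 ∈ Finset.range (δ 0 + 1)
  · rw [Finset.sum_ite_eq', if_pos hi]
    ring
  · rw [Finset.sum_ite_eq', if_neg hi, Nat.choose_eq_zero_of_lt (by simpa using hi)]
    simp

end Coeff

/-- The support of Lemma B inside `ℤ × ℤ`. -/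
def QsZ (b m : ℕ) : Finset (ℤ × ℤ) :=
  (((Finset.range (b + 1)) ×ˢ (Finset.range (9 * b * b + 1))).filter fun p : ℕ × ℕ =>
    p = (0, 0) ∨ (1 ≤ p.1 ∧ 9 * (b - m) * p.1 ≤ m * p.2 ∧ m * p.2 < 9 * b * p.1)).image
      fun p => ((p.1 : ℤ), (p.2 : ℤ))

theorem mem_QsZ {b m : ℕ} (hm : 1 ≤ m) (hmb : m ≤ b) {s : ℤ × ℤ} :
    s ∈ QsZ b m ↔ s = (0, 0) ∨ (1 ≤ s.1 ∧ s.1 ≤ b ∧ 9 * ((b : ℤ) - m) * s.1 ≤ m * s.2 ∧
      (m : ℤ) * s.2 < 9 * b * s.1) := by
  simp only [QsZ, Finset.mem_image, Finset.mem_filter, Finset.mem_product, Finset.mem_range]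
  constructor
  · rintro ⟨⟨j, i⟩, ⟨⟨h1, h2⟩, h | ⟨h3, h4, h5⟩⟩, rfl⟩
    · left
      simp only [Prod.mk.injEq] at h
      simp [h.1, h.2]
    · right
      simp only at *
      refine ⟨by exact_mod_cast h3, by exact_mod_cast (by omega : j ≤ b), ?_, by exact_mod_cast h5⟩
      zify [hmb] at h4
      exact h4
  · rintro (h | ⟨h1, h2, h3, h4⟩)
    · exact ⟨(0, 0), by simp, by simp [h]⟩
    · obtain ⟨j, i⟩ := s
      simp only at *
      obtain ⟨j, rfl⟩ := Int.eq_ofNat_of_zero_le (by omega : 0 ≤ j)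
      have hi : 0 ≤ i := by
        have h5 : 0 ≤ (m : ℤ) * i := le_trans (by
          have : (0 : ℤ) ≤ (b : ℤ) - m := by omega
          positivity) h3
        by_contra hcon
        push Not at hcon
        have : (0 : ℤ) < m := by omega
        nlinarith
      obtain ⟨i, rfl⟩ := Int.eq_ofNat_of_zero_le hi
      have h4' : m * i < 9 * b * j := by exact_mod_cast h4
      refine ⟨(j, i), ⟨⟨by simp at h2 ⊢; omega, ?_⟩, Or.inr ⟨by exact_mod_cast h1, ?_, h4'⟩⟩, rfl⟩
      · have h6 : j ≤ b := by exact_mod_cast h2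
        have h7 : i ≤ m * i := Nat.le_mul_of_pos_left i (by omega)
        have h8 : 9 * b * j ≤ 9 * b * b := Nat.mul_le_mul_left _ h6
        simp only
        omega
      · zify [hmb]
        exact h3

section Indep

variable {k : Type*} [Field k] [CharZero k]

/-- Moments and multiplicity at the point `(1, x)`. -/
theorem multGE_of_van {S : Finset (ℤ × ℤ)} (hS : ∀ s ∈ S, 0 ≤ s.1 ∧ 0 ≤ s.2) {c : ℤ × ℤ → k}
    {x : k} (hx : x ≠ 0) {m : ℕ} (h : H765.L.Van S c (1, x) m) :
    MultGE ![1, x] m (∑ s ∈ S, monomial (mk s.1.toNat s.2.toNat) (c s)) := by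
  intro α hα
  rw [map_sum, coeff_sum]
  have hf0 : ((α 0).factorial : k) ≠ 0 := by exact_mod_cast (α 0).factorial_ne_zero
  have hf1 : ((α 1).factorial : k) ≠ 0 := by exact_mod_cast (α 1).factorial_ne_zero
  have hxa : x ^ (α 1) ≠ 0 := pow_ne_zero _ hx
  have key : ((α 0).factorial : k) * ((α 1).factorial : k) * x ^ (α 1) *
      (∑ s ∈ S, coeff α (shift ![1, x] (monomial (mk s.1.toNat s.2.toNat) (c s)))) = 0 := by
    rw [Finset.mul_sum]
    have e1 : ∀ s ∈ S, ((α 0).factorial : k) * ((α 1).factorial : k) * x ^ (α 1) *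
        coeff α (shift ![1, x] (monomial (mk s.1.toNat s.2.toNat) (c s))) =
        ∑ i ∈ Finset.range (α 0 + 1), ∑ j ∈ Finset.range (α 1 + 1),
          ((descPochhammer k (α 0)).coeff i * (descPochhammer k (α 1)).coeff j) *
            (c s * (s.1 : k) ^ i * (s.2 : k) ^ j * (1 : k) ^ s.1 * x ^ s.2) := by
      intro s hs
      obtain ⟨h1, h2⟩ := hS s hs
      obtain ⟨⟨s1, s2⟩⟩ : Nonempty {p : ℕ × ℕ // s = ((p.1 : ℤ), (p.2 : ℤ))} :=
        ⟨⟨(s.1.toNat, s.2.toNat), by
          ext
          · simp [Int.toNat_of_nonneg h1]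
          · simp [Int.toNat_of_nonneg h2]⟩⟩
      subst s2
      obtain ⟨a, b⟩ := s1
      rw [coeff_shift_monomial]
      simp only [Int.toNat_natCast, mk_zero, mk_one, Matrix.cons_val_zero, Matrix.cons_val_one,
        Matrix.cons_val_fin_one, one_pow, one_mul, one_zpow, mul_one, Int.cast_natCast,
        zpow_natCast]
      have e2 : ∀ n a : ℕ, (a.factorial : k) * (n.choose a : k) =
          ∑ i ∈ Finset.range (a + 1), (descPochhammer k a).coeff i * (n : k) ^ i := by
        intro n a
        have h3 : (n.descFactorial a : k) = (descPochhammer k a).eval (n : k) :=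
          (descPochhammer_eval_eq_descFactorial k n a).symm
        rw [← Nat.cast_mul, ← Nat.descFactorial_eq_factorial_mul_choose, h3,
          Polynomial.eval_eq_sum_range, descPochhammer_natDegree]
      have e3 : ((b.choose (α 1) : ℕ) : k) * (x ^ (α 1) * x ^ (b - α 1)) =
          (b.choose (α 1) : k) * x ^ b := by
        by_cases hb : α 1 ≤ b
        · rw [← pow_add, Nat.add_sub_cancel' hb]
        · rw [Nat.choose_eq_zero_of_lt (by omega)]
          simp
      calc ((α 0).factorial : k) * ((α 1).factorial : k) * x ^ (α 1) *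
            (c ((a : ℤ), (b : ℤ)) * (((a.choose (α 0) : ℕ) : k) * ((b.choose (α 1) : ℕ) : k) *
              x ^ (b - α 1)))
          = c ((a : ℤ), (b : ℤ)) * (((α 0).factorial : k) * ((a.choose (α 0) : ℕ) : k)) *
              (((α 1).factorial : k) * (((b.choose (α 1) : ℕ) : k) *
                (x ^ (α 1) * x ^ (b - α 1)))) := by ring
        _ = c ((a : ℤ), (b : ℤ)) * (((α 0).factorial : k) * ((a.choose (α 0) : ℕ) : k)) *
              ((((α 1).factorial : k) * ((b.choose (α 1) : ℕ) : k)) * x ^ b) := by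
            rw [e3]; ring
        _ = _ := by
            rw [e2, e2]
            have e4 : ∀ u A B v : k, u * A * (B * v) = u * v * (A * B) := fun u A B v => by ring
            rw [e4, Finset.sum_mul_sum, Finset.mul_sum]
            refine Finset.sum_congr rfl fun i _ => ?_
            rw [Finset.mul_sum]
            refine Finset.sum_congr rfl fun j _ => ?_
            ring
    rw [Finset.sum_congr rfl e1, Finset.sum_comm]
    refine Finset.sum_eq_zero fun i hi => ?_
    rw [Finset.sum_comm]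
    refine Finset.sum_eq_zero fun j hj => ?_
    rw [← Finset.mul_sum]
    have h4 := h i j (by
      rw [Finset.mem_range] at hi hj
      have := degree_two α
      omega)
    simp only at h4
    rw [h4, mul_zero]
  exact (mul_eq_zero.1 key).resolve_left (mul_ne_zero (mul_ne_zero hf0 hf1) hxa)

theorem indep_QsZ {r b m : ℕ} (hm : 1 ≤ m) (hmb : m < b) (h9 : 9 * b ^ 2 ≤ r * m ^ 2)
    {x : Fin r → k} (hx : Function.Injective x) (hx0 : ∀ l, x l ≠ 0) :
    H765.L.Indep (QsZ b m) (fun l => ((1 : k), x l)) (fun _ => m) := by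
  classical
  intro c hc s hs
  have hnn : ∀ s ∈ QsZ b m, 0 ≤ s.1 ∧ 0 ≤ s.2 := by
    intro s hs
    simp only [QsZ, Finset.mem_image] at hs
    obtain ⟨p, -, rfl⟩ := hs
    exact ⟨by positivity, by positivity⟩
  set P : MvPolynomial (Fin 2) k := ∑ s ∈ QsZ b m, monomial (mk s.1.toNat s.2.toNat) (c s)
    with hP
  have hinj : ∀ s ∈ QsZ b m, ∀ s' ∈ QsZ b m, mk s.1.toNat s.2.toNat = mk s'.1.toNat s'.2.toNat →
      s = s' := by
    intro s hs s' hs' h
    have h0 := congrArg (fun δ : Fin 2 →₀ ℕ => δ 0) h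
    have h1 := congrArg (fun δ : Fin 2 →₀ ℕ => δ 1) h
    simp only [mk_zero, mk_one] at h0 h1
    have := hnn s hs
    have := hnn s' hs'
    ext
    · omega
    · omega
  have hcoeff : ∀ s ∈ QsZ b m, coeff (mk s.1.toNat s.2.toNat) P = c s := by
    intro s hs
    rw [hP, coeff_sum, Finset.sum_eq_single s]
    · rw [coeff_monomial, if_pos rfl]
    · intro s' hs' hne
      rw [coeff_monomial, if_neg]
      exact fun h => hne (hinj s' hs' s hs h)
    · intro h
      exact absurd hs h
  have h0 : P = 0 := by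
    refine lemmaB hm hmb h9 hx hx0 ?_ ?_
    · intro δ hδ
      rw [mem_support_iff] at hδ
      obtain ⟨s, hs, hne⟩ := Finset.exists_ne_zero_of_sum_ne_zero (by
        rw [hP, coeff_sum] at hδ
        exact hδ)
      rw [coeff_monomial] at hne
      split_ifs at hne with h
      · rw [← h]
        rw [mem_QsZ hm hmb.le] at hs
        have h2 := hnn s (by rw [mem_QsZ hm hmb.le]; exact hs)
        rcases hs with hs | ⟨h3, h4, h5, h6⟩
        · left
          simp [hs]
        · right
          obtain ⟨s1, s2⟩ := s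
          simp only at *
          obtain ⟨s1, rfl⟩ := Int.eq_ofNat_of_zero_le h2.1
          obtain ⟨s2, rfl⟩ := Int.eq_ofNat_of_zero_le h2.2
          rw [mk_zero, mk_one]
          simp only [Int.toNat_natCast]
          refine ⟨by exact_mod_cast h3, by exact_mod_cast h4, ?_, by exact_mod_cast h6⟩
          zify [hmb.le]
          exact h5
      · exact absurd rfl hne
    · intro l
      exact multGE_of_van hnn (hx0 l) (hc l)
  rw [← hcoeff s hs, h0, coeff_zero]

end Indep

/-- **The core inequality from the degeneration statement.** -/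
theorem core_of_LA {r : ℕ} (k : Type*) [Field k] [CharZero k]
    (h : ∀ b m : ℕ, 1 ≤ m → m < b → H765.LAStmt k b (QsZ b m)) : Core r := by
  intro b m hm hmb h9
  refine H765.glue (k := k) (by omega) (QsZ b m) (fun _ : Fin r => m)
    (fun l => ((1 : k), ((l.val + 1 : ℕ) : k))) ?_ ?_ (h b m hm hmb)
  · intro l
    exact ⟨one_ne_zero, Nat.cast_ne_zero.2 (by omega)⟩
  · refine indep_QsZ hm hmb h9 ?_ ?_
    · intro l l' hl
      have := Nat.cast_injective (R := k) hl
      exact Fin.ext (by omega)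
    · intro l
      exact Nat.cast_ne_zero.2 (by omega)

end Vale.Agent.P279.H597
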