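import Vale.Agent.P279.H35.Univ
import Vale.Agent.P279.H142.LAEconv

/-!
# The degeneration statement from the elementary Lemma A
-/

set_option linter.all false

namespace Vale.Agent.P279.H597

open MvPolynomial Vale.Agent.P279

/-- The elementary degeneration statement over the ring of Laurent polynomials holds. -/
theorem laUniv (k : Type*) [Field k] [CharZero k] {A B : ℕ} (hA : 0 < A) (hB : 0 < B) (b : ℕ)
    (N : ℤ) : H142.LAUniv k A B b N := by
  have hc : 9 * b * A * B < (A + B) * (9 * b * A * B + 1) := by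
    have h1 : 1 * (9 * b * A * B + 1) ≤ (A + B) * (9 * b * A * B + 1) :=
      Nat.mul_le_mul_right _ (by omega)
    omega
  obtain ⟨U, ρ, σ, h0, h, hρ⟩ := H35.exists_U k (9 * b * A * B + 1 + 1)
  refine ⟨H35.pt A B (9 * b * A * B + 1) U ρ (H142.xu k)
    (AddMonoidAlgebra.single ((-1 : ℤ), -N) (1 : k)), fun P hP hdeg => ?_⟩
  obtain ⟨e, lam, h1, h2, h3⟩ := H35.la_univ hA hB hc h0 h hρ P hP hdeg
  exact ⟨e, lam, h1, h2, h3 (H765.R2 k) (H142.xu k) _⟩

/-- The degeneration statement. -/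
theorem laStmt {b m : ℕ} (hm : 1 ≤ m) (hmb : m < b) :
    H765.LAStmt ℚ b (H765.QsZ b m) :=
  H142.laStmt_QsZ hm hmb fun _ _ hA hB N => laUniv ℚ hA hB b N

end Vale.Agent.P279.H597
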