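import Vale.Agent.P279.Defs
import Mathlib

/-!
# Sanity lemmas for the definitions of the P279 hand-ins

`VeryGenerally` is not vacuous: a very general property holds for some tuple of distinct points.
-/

set_option linter.all false

namespace Vale.Agent.P279.H597

open MvPolynomial Vale.Agent.P279

/-- Countably many nonzero complex polynomials in finitely many variables have a common point
where none of them vanishes. -/
theorem exists_common_ne {σ : Type*} [Fintype σ] (G : ℕ → MvPolynomial σ ℂ) (hG : ∀ k, G k ≠ 0) :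
    ∃ v : σ → ℂ, ∀ k, eval v (G k) ≠ 0 := by
  have hopen : ∀ k, IsOpen {v : σ → ℂ | eval v (G k) ≠ 0} := fun k =>
    isOpen_ne_fun (MvPolynomial.continuous_eval _) continuous_const
  have hdense : ∀ k, Dense {v : σ → ℂ | eval v (G k) ≠ 0} := by
    intro k
    rw [dense_iff_inter_open]
    intro U hU hne
    by_contra hcon
    rw [Set.not_nonempty_iff_eq_empty] at hcon
    obtain ⟨u, hu⟩ := hne
    obtain ⟨ε, hε, hball⟩ := Metric.isOpen_iff.1 hU u hu
    apply hG k
    refine MvPolynomial.funext_set (fun i => Metric.ball (u i) ε) (fun i => ?_) ?_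
    · exact infinite_of_mem_nhds (u i) (Metric.ball_mem_nhds _ hε)
    · intro x hx
      have hx' : x ∈ U := by
        apply hball
        rw [Metric.mem_ball, dist_pi_lt_iff hε]
        exact fun i => hx i (Set.mem_univ i)
      by_contra hne
      have : x ∈ U ∩ {v : σ → ℂ | eval v (G k) ≠ 0} := ⟨hx', by simpa using hne⟩
      rw [hcon] at this
      exact this
  obtain ⟨v, hv⟩ := (dense_iInter_of_isOpen_nat hopen hdense).nonempty
  exact ⟨v, fun k => Set.mem_iInter.1 hv k⟩

theorem eval_scale {r : ℕ} {G : MvPolynomial (Fin r × Fin 3) ℂ} (hG : MultiHomogeneous G)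
    (a : Fin r → ℂ) (v : Fin r × Fin 3 → ℂ) :
    ∃ e : Fin r → ℕ, eval (fun x => a x.1 * v x) G = (∏ i, a i ^ e i) * eval v G := by
  choose e he using hG
  refine ⟨e, ?_⟩
  rw [eval_eq', eval_eq', Finset.mul_sum]
  refine Finset.sum_congr rfl fun s hs => ?_
  rw [mul_left_comm]
  congr 1
  rw [Fintype.prod_prod_type, Fintype.prod_prod_type, ← Finset.prod_mul_distrib]
  refine Finset.prod_congr rfl fun i _ => ?_
  simp only [mul_pow]
  rw [Finset.prod_mul_distrib, Finset.prod_pow_eq_pow_sum, he i s hs]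

/-- A very general property holds for some tuple of pairwise distinct points. -/
theorem exists_of_veryGenerally {r : ℕ} {Q : (Fin r → PPlane) → Prop} (h : VeryGenerally r Q) :
    ∃ p : Fin r → PPlane, Function.Injective p ∧ Q p := by
  classical
  obtain ⟨Z, hZ, hQ⟩ := h
  -- equations of the closed sets
  have h1 : ∀ k, ∃ G : MvPolynomial (Fin r × Fin 3) ℂ, MultiHomogeneous G ∧ G ≠ 0 ∧
      ∀ p ∈ Z k, eval (fun x : Fin r × Fin 3 => (p x.1).rep x.2) G = 0 := by
    intro k
    obtain ⟨⟨S, hS, hZS⟩, p, -, hp⟩ := hZ k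
    rw [hZS] at hp
    simp only [Set.mem_ofPred_eq, not_forall] at hp
    obtain ⟨G, hG, hne⟩ := hp
    refine ⟨G, hS G hG, ?_, ?_⟩
    · rintro rfl
      simp at hne
    · intro q hq
      rw [hZS] at hq
      exact hq G hG
  choose G hGm hG0 hGZ using h1
  -- the diagonals
  set Δ : MvPolynomial (Fin r × Fin 3) ℂ :=
    (∏ i : Fin r, ∏ j : Fin r, if i = j then 1 else
      (X (i, 0) * X (j, 1) - X (i, 1) * X (j, 0))) * ∏ i : Fin r, X (i, 0) with hΔ
  have hΔ0 : Δ ≠ 0 := by
    rw [hΔ]
    refine mul_ne_zero ?_ ?_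
    · rw [Finset.prod_ne_zero_iff]
      intro i _
      rw [Finset.prod_ne_zero_iff]
      intro j _
      split_ifs with h
      · exact one_ne_zero
      · intro h2
        have h3 := congrArg (eval (fun x : Fin r × Fin 3 =>
          if x.1 = i then (if x.2 = 0 then (1 : ℂ) else 0) else (if x.2 = 1 then 1 else 0))) h2
        have h4 : ¬ j = i := fun h => by exact absurd h.symm ‹¬ i = j›
        simp [h4] at h3
    · rw [Finset.prod_ne_zero_iff]
      exact fun i _ => X_ne_zero _
  obtain ⟨v, hv⟩ := exists_common_ne (fun k => G k * Δ) (fun k => mul_ne_zero (hG0 k) hΔ0)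
  have hvG : ∀ k, eval v (G k) ≠ 0 := fun k => by
    have := hv k
    rw [map_mul] at this
    exact left_ne_zero_of_mul this
  have hvΔ : eval v Δ ≠ 0 := by
    have := hv 0
    rw [map_mul] at this
    exact right_ne_zero_of_mul this
  rw [hΔ, map_mul] at hvΔ
  have hv0 : ∀ i, v (i, 0) ≠ 0 := by
    intro i
    have h2 := right_ne_zero_of_mul hvΔ
    rw [map_prod, Finset.prod_ne_zero_iff] at h2
    simpa using h2 i (Finset.mem_univ i)
  have hvd : ∀ i j, i ≠ j → v (i, 0) * v (j, 1) - v (i, 1) * v (j, 0) ≠ 0 := by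
    intro i j hij
    have h2 := left_ne_zero_of_mul hvΔ
    rw [map_prod, Finset.prod_ne_zero_iff] at h2
    have h3 := h2 i (Finset.mem_univ i)
    rw [map_prod, Finset.prod_ne_zero_iff] at h3
    have h4 := h3 j (Finset.mem_univ j)
    rw [if_neg hij] at h4
    simpa using h4
  have hvne : ∀ i, (fun k : Fin 3 => v (i, k)) ≠ 0 := fun i h => hv0 i (congrFun h 0)
  set p : Fin r → PPlane := fun i => Projectivization.mk ℂ (fun k : Fin 3 => v (i, k)) (hvne i)
    with hp
  have hrep : ∀ i, ∃ a : ℂ, a ≠ 0 ∧ ∀ k, (p i).rep k = a * v (i, k) := by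
    intro i
    obtain ⟨u, hu⟩ := Projectivization.exists_smul_eq_mk_rep ℂ (fun k : Fin 3 => v (i, k)) (hvne i)
    refine ⟨u, u.ne_zero, fun k => ?_⟩
    have := congrFun hu k
    simp only [Pi.smul_apply, Units.smul_def, smul_eq_mul] at this
    exact this.symm
  choose a ha0 ha using hrep
  refine ⟨p, ?_, hQ p ?_ ?_⟩
  · intro i j hij
    by_contra hne
    apply hvd i j hne
    have e0 := ha i 0
    have e1 := ha i 1
    rw [hij, ha j 0] at e0
    rw [hij, ha j 1] at e1
    have h5 : a i * (a j * (v (i, 0) * v (j, 1) - v (i, 1) * v (j, 0))) = 0 := by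
      linear_combination (-(a j * v (j, 1))) * e0 + (a j * v (j, 0)) * e1
    exact (mul_eq_zero.1 ((mul_eq_zero.1 h5).resolve_left (ha0 i))).resolve_left (ha0 j)
  · intro i j hij
    by_contra hne
    apply hvd i j hne
    have e0 := ha i 0
    have e1 := ha i 1
    rw [hij, ha j 0] at e0
    rw [hij, ha j 1] at e1
    have h5 : a i * (a j * (v (i, 0) * v (j, 1) - v (i, 1) * v (j, 0))) = 0 := by
      linear_combination (-(a j * v (j, 1))) * e0 + (a j * v (j, 0)) * e1
    exact (mul_eq_zero.1 ((mul_eq_zero.1 h5).resolve_left (ha0 i))).resolve_left (ha0 j)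
  · intro k hk
    have h6 := hGZ k p hk
    obtain ⟨e, he⟩ := eval_scale (hGm k) a v
    have h7 : (fun x : Fin r × Fin 3 => (p x.1).rep x.2) = fun x => a x.1 * v x := by
      funext x
      exact ha x.1 x.2
    rw [h7, he] at h6
    rcases mul_eq_zero.1 h6 with h8 | h8
    · rw [Finset.prod_eq_zero_iff] at h8
      obtain ⟨i, -, hi⟩ := h8
      exact pow_ne_zero _ (ha0 i) hi
    · exact hvG k h8

end Vale.Agent.P279.H597
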